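import Mathlib

/-!
Real-variable part of S0423: a Gruenbaum-type comparison for log-concave survival functions.
-/

namespace Crest.Agent.R280

open MeasureTheory Set Real Filter Topology

/-- The comparison survival functions. -/
noncomputable def G (t y : ℝ) : ℝ := min 1 (Real.exp ((4 / 3 - y) / t - 1))

lemma G_nonneg (t y : ℝ) : 0 ≤ G t y := le_min zero_le_one (Real.exp_pos _).le

lemma G_le_one (t y : ℝ) : G t y ≤ 1 := min_le_left _ _

lemma G_le_exp (t y : ℝ) : G t y ≤ Real.exp ((4 / 3 - y) / t - 1) := min_le_right _ _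

lemma measurable_G (t : ℝ) : Measurable (G t) := by
  unfold G
  fun_prop

lemma G_of_le {t y : ℝ} (ht : 0 < t) (hy : y ≤ 4 / 3 - t) : G t y = 1 := by
  unfold G
  apply min_eq_left
  apply Real.one_le_exp
  rw [sub_nonneg, le_div_iff₀ ht]
  linarith

lemma G_of_ge {t y : ℝ} (ht : 0 < t) (hy : 4 / 3 - t ≤ y) :
    G t y = Real.exp ((4 / 3 - y) / t - 1) := by
  unfold G
  apply min_eq_right
  apply Real.exp_le_one_iff.2
  rw [sub_nonpos, div_le_iff₀ ht]
  linarith

/-- The basic integral. -/
lemma hasDerivAt_aux (κ : ℝ) (hκ : 0 < κ) (y : ℝ) :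
    HasDerivAt (fun y : ℝ => -(Real.exp (-κ * y) * (y / κ + 1 / κ ^ 2)))
      (y * Real.exp (-κ * y)) y := by
  have h1 : HasDerivAt (fun y : ℝ => Real.exp (-κ * y)) (Real.exp (-κ * y) * (-κ)) y := by
    have : HasDerivAt (fun y : ℝ => -κ * y) (-κ) y := by
      simpa using (hasDerivAt_id y).const_mul (-κ)
    exact this.exp
  have h2 : HasDerivAt (fun y : ℝ => y / κ + 1 / κ ^ 2) (1 / κ) y := by
    simpa using ((hasDerivAt_id y).div_const κ).add_const (1 / κ ^ 2)
  have h3 := (h1.mul h2).neg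
  refine HasDerivAt.congr_deriv h3 ?_
  field_simp
  ring

lemma tendsto_aux (κ : ℝ) (hκ : 0 < κ) :
    Tendsto (fun y : ℝ => -(Real.exp (-κ * y) * (y / κ + 1 / κ ^ 2))) atTop (𝓝 0) := by
  have h1 : Tendsto (fun y : ℝ => κ * y) atTop atTop := tendsto_id.const_mul_atTop hκ
  have h2 := (Real.tendsto_pow_mul_exp_neg_atTop_nhds_zero 1).comp h1
  have h3 := (Real.tendsto_pow_mul_exp_neg_atTop_nhds_zero 0).comp h1
  have h4 := ((h2.add h3).div_const (κ ^ 2)).neg
  simp only [add_zero, zero_div, neg_zero] at h4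
  refine h4.congr fun y => ?_
  simp only [Function.comp, pow_one, pow_zero, one_mul, neg_mul]
  field_simp

lemma integrableOn_mul_exp (κ : ℝ) (hκ : 0 < κ) (b : ℝ) (hb : 0 ≤ b) :
    IntegrableOn (fun y : ℝ => y * Real.exp (-κ * y)) (Ioi b) := by
  refine integrableOn_Ioi_deriv_of_nonneg' (fun y _ => hasDerivAt_aux κ hκ y) ?_
    (tendsto_aux κ hκ)
  intro y hy
  have : 0 ≤ y := hb.trans (le_of_lt hy)
  positivity

lemma integral_mul_exp (κ : ℝ) (hκ : 0 < κ) (b : ℝ) (hb : 0 ≤ b) :
    ∫ y in Ioi b, y * Real.exp (-κ * y) = Real.exp (-κ * b) * (b / κ + 1 / κ ^ 2) := by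
  rw [integral_Ioi_of_hasDerivAt_of_tendsto' (fun y _ => hasDerivAt_aux κ hκ y)
    (integrableOn_mul_exp κ hκ b hb) (tendsto_aux κ hκ)]
  ring

lemma exp_third : (25 / 18 : ℝ) ≤ Real.exp (1 / 3) := by
  have := Real.quadratic_le_exp_of_nonneg (x := 1 / 3) (by norm_num)
  linarith

lemma c_le : 4 / 9 * Real.exp (-1 / 3) ≤ (8 / 25 : ℝ) := by
  have h := exp_third
  have h2 : Real.exp (-1 / 3) * Real.exp (1 / 3) = 1 := by
    rw [← Real.exp_add]; norm_num
  have h3 := Real.exp_pos (-1 / 3)
  nlinarith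

/-- The one-variable inequality. -/
lemma integral_G_ge (t : ℝ) (ht : 0 < t) :
    4 / 9 * Real.exp (-1 / 3) ≤ ∫ y in Ioi (0 : ℝ), y * Real.exp (-y) * G t y := by
  have hκ : 0 < 1 + 1 / t := by positivity
  rcases le_or_gt (4 / 3) t with h | h
  · have e1 : ∫ y in Ioi (0 : ℝ), y * Real.exp (-y) * G t y =
        ∫ y in Ioi (0 : ℝ), Real.exp (4 / 3 / t - 1) * (y * Real.exp (-(1 + 1 / t) * y)) := by
      refine setIntegral_congr_fun measurableSet_Ioi fun y hy => ?_
      have hy' : (0 : ℝ) < y := hy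
      rw [G_of_ge ht (by linarith), mul_assoc, ← Real.exp_add, mul_left_comm, ← Real.exp_add]
      congr 2
      field_simp
      ring
    rw [e1, integral_const_mul, integral_mul_exp _ hκ 0 le_rfl]
    simp only [mul_zero, Real.exp_zero, zero_div, zero_add, one_mul]
    set u := 1 / t with hu
    have hu0 : 0 < u := by positivity
    have e2 : (4 / 3 / t - 1) = -1 / 3 + 2 * ((1 + u) / (3 / 2) - 1) := by
      rw [hu]; field_simp; ring
    have e3 : (1 + u) / (3 / 2) ≤ Real.exp ((1 + u) / (3 / 2) - 1) := by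
      have := Real.add_one_le_exp ((1 + u) / (3 / 2) - 1)
      linarith
    have e4 : ((1 + u) / (3 / 2)) ^ 2 ≤ Real.exp (2 * ((1 + u) / (3 / 2) - 1)) := by
      rw [two_mul, Real.exp_add, sq]
      exact mul_le_mul e3 e3 (by positivity) (Real.exp_pos _).le
    rw [e2, Real.exp_add, mul_assoc, mul_comm (4 / 9 : ℝ)]
    apply mul_le_mul_of_nonneg_left _ (Real.exp_pos _).le
    rw [mul_one_div, le_div_iff₀ (by positivity)]
    nlinarith
  · set y₀ := 4 / 3 - t with hy₀
    have hy0 : 0 < y₀ := by linarith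
    have i1 := integrableOn_mul_exp 1 one_pos 0 le_rfl
    have i2 := integrableOn_mul_exp 1 one_pos y₀ hy0.le
    have i3 := integrableOn_mul_exp _ hκ y₀ hy0.le
    have e1 : ∫ y in Ioi (0 : ℝ), y * Real.exp (-y) * G t y =
        ∫ y in Ioi (0 : ℝ), (y * Real.exp (-1 * y) - (Ioi y₀).indicator (fun y =>
          y * Real.exp (-1 * y) - Real.exp (y₀ / t) * (y * Real.exp (-(1 + 1 / t) * y))) y) := by
      refine setIntegral_congr_fun measurableSet_Ioi fun y hy => ?_
      by_cases hy' : y ∈ Ioi y₀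
      · rw [indicator_of_mem hy', G_of_ge ht (le_of_lt hy'), sub_sub_cancel, mul_assoc,
          ← Real.exp_add, mul_left_comm, ← Real.exp_add]
        congr 2
        rw [hy₀]
        field_simp
        ring
      · rw [indicator_of_notMem hy', G_of_le ht (not_lt.1 hy')]
        simp
    have i4 : IntegrableOn (fun y =>
          y * Real.exp (-1 * y) - Real.exp (y₀ / t) * (y * Real.exp (-(1 + 1 / t) * y)))
          (Ioi y₀) := i2.sub (i3.const_mul _)
    rw [e1, integral_sub i1 ((i4.integrable_indicator measurableSet_Ioi).integrableOn),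
      setIntegral_indicator measurableSet_Ioi, inter_eq_right.2 (Ioi_subset_Ioi hy0.le),
      integral_sub i2 (i3.const_mul _), integral_const_mul, integral_mul_exp _ hκ _ hy0.le,
      integral_mul_exp _ one_pos _ hy0.le, integral_mul_exp _ one_pos _ le_rfl, ← mul_assoc,
      ← Real.exp_add]
    have e2 : y₀ / t + -(1 + 1 / t) * y₀ = -1 * y₀ := by field_simp; ring
    rw [e2]
    simp only [mul_zero, Real.exp_zero, zero_add, one_mul, div_one, one_pow]
    refine c_le.trans ?_
    have e3 : 1 + y₀ + y₀ ^ 2 / 2 + y₀ ^ 3 / 6 ≤ Real.exp y₀ := by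
      have := Real.sum_le_exp_of_nonneg hy0.le 4
      simp only [Finset.sum_range_succ, Finset.sum_range_zero, Nat.factorial] at this
      norm_num at this
      linarith
    have e4 : Real.exp (-1 * y₀) * Real.exp y₀ = 1 := by
      rw [← Real.exp_add]; simp
    have e5 : y₀ + 1 - (y₀ / (1 + 1 / t) + 1 / (1 + 1 / t) ^ 2) =
        (7 / 3 + 7 / 3 * t - t ^ 2) / (1 + t) ^ 2 := by
      rw [hy₀]; field_simp; ring
    have e6 : (7 / 3 + 7 / 3 * t - t ^ 2) ≤
        17 / 25 * (1 + y₀ + y₀ ^ 2 / 2 + y₀ ^ 3 / 6) * (1 + t) ^ 2 := by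
      have p0 : 0 ≤ y₀ ^ 5 := by positivity
      have p1 : 0 ≤ t * y₀ ^ 4 := by positivity
      have p2 : 0 ≤ t ^ 2 * y₀ ^ 3 := by positivity
      have p3 : 0 ≤ t ^ 3 * y₀ ^ 2 := by positivity
      have p4 : 0 ≤ t ^ 4 * y₀ := by positivity
      have p5 : 0 ≤ t ^ 5 := by positivity
      rw [hy₀] at *
      nlinarith
    have e7 : (7 / 3 + 7 / 3 * t - t ^ 2) / (1 + t) ^ 2 ≤ 17 / 25 * Real.exp y₀ := by
      rw [div_le_iff₀ (by positivity)]
      refine e6.trans ?_
      gcongr
    have e8 := Real.exp_pos (-1 * y₀)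
    have e9 : Real.exp (-1 * y₀) * ((7 / 3 + 7 / 3 * t - t ^ 2) / (1 + t) ^ 2) ≤ 17 / 25 := by
      calc _ ≤ Real.exp (-1 * y₀) * (17 / 25 * Real.exp y₀) := by gcongr
        _ = 17 / 25 * (Real.exp (-1 * y₀) * Real.exp y₀) := by ring
        _ = 17 / 25 := by rw [e4, mul_one]
    rw [← e5] at e9
    linarith

/-- The step function at the mean. -/
noncomputable def step (y : ℝ) : ℝ := (Iio (4 / 3 : ℝ)).indicator 1 y

lemma G_sub_step (t : ℝ) (ht : 0 < t) : (fun y => G t y - step y) =
    fun y => (Ioi (4 / 3 - t)).indicator (fun y => Real.exp (4 / 3 / t - 1) *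
      Real.exp (-(1 / t) * y)) y - (Ioo (4 / 3 - t) (4 / 3)).indicator 1 y := by
  funext y
  unfold step
  by_cases h1 : y ≤ 4 / 3 - t
  · rw [G_of_le ht h1, indicator_of_mem (by simp only [mem_Iio]; linarith),
      indicator_of_notMem (by simp only [mem_Ioi]; linarith),
      indicator_of_notMem (by simp only [mem_Ioo, not_and]; intro; linarith)]
    simp
  · push Not at h1
    rw [G_of_ge ht h1.le, indicator_of_mem (show y ∈ Ioi (4 / 3 - t) from h1), ← Real.exp_add]
    have : (4 / 3 - y) / t - 1 = 4 / 3 / t - 1 + -(1 / t) * y := by field_simp; ring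
    rw [this]
    congr 1
    by_cases h2 : y < 4 / 3
    · rw [indicator_of_mem (show y ∈ Iio (4 / 3) from h2), indicator_of_mem (show y ∈ Ioo _ _ from ⟨h1, h2⟩)]
    · rw [indicator_of_notMem (show y ∉ Iio (4 / 3) from h2),
        indicator_of_notMem (show y ∉ Ioo _ _ from fun h => h2 h.2)]

lemma integrable_G_sub_step (t : ℝ) (ht : 0 < t) : Integrable (fun y => G t y - step y) := by
  rw [G_sub_step t ht]
  refine Integrable.sub ?_ ?_
  · refine IntegrableOn.integrable_indicator ?_ measurableSet_Ioi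
    exact (integrableOn_exp_mul_Ioi (by simpa using ht) _).const_mul _
  · refine IntegrableOn.integrable_indicator ?_ measurableSet_Ioo
    exact integrableOn_const (by simp)

lemma integral_G_sub_step (t : ℝ) (ht : 0 < t) : ∫ y, (G t y - step y) = 0 := by
  rw [G_sub_step t ht, integral_sub, integral_indicator measurableSet_Ioi,
    integral_indicator measurableSet_Ioo, integral_const_mul,
    integral_exp_mul_Ioi (by simpa using ht)]
  · simp only [Pi.one_apply, integral_const, MeasurableSet.univ, measureReal_restrict_apply,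
      univ_inter, smul_eq_mul, mul_one]
    rw [Real.volume_real_Ioo_of_le (by linarith)]
    have : Real.exp (4 / 3 / t - 1) * Real.exp (-(1 / t) * (4 / 3 - t)) = 1 := by
      rw [← Real.exp_add]
      have : 4 / 3 / t - 1 + -(1 / t) * (4 / 3 - t) = 0 := by field_simp; ring
      rw [this, Real.exp_zero]
    rw [neg_div_neg_eq, ← mul_div_assoc, this]
    field_simp
    ring
  · refine IntegrableOn.integrable_indicator ?_ measurableSet_Ioi
    exact (integrableOn_exp_mul_Ioi (by simpa using ht) _).const_mul _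
  · refine IntegrableOn.integrable_indicator ?_ measurableSet_Ioo
    exact integrableOn_const (by simp)

/-- The weight. -/
noncomputable def W (y : ℝ) : ℝ := (Ioi (0 : ℝ)).indicator (fun y => y * Real.exp (-y)) y

lemma W_nonneg (y : ℝ) : 0 ≤ W y := by
  unfold W
  by_cases h : y ∈ Ioi (0 : ℝ)
  · rw [indicator_of_mem h]
    have : (0 : ℝ) < y := h
    positivity
  · rw [indicator_of_notMem h]

lemma W_le_one (y : ℝ) : W y ≤ 1 := by
  unfold W
  by_cases h : y ∈ Ioi (0 : ℝ)
  · rw [indicator_of_mem h, Real.exp_neg, ← div_eq_mul_inv, div_le_one (Real.exp_pos _)]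
    have := Real.add_one_le_exp y
    linarith
  · rw [indicator_of_notMem h]; exact zero_le_one

lemma measurable_W : Measurable W := by
  unfold W
  exact Measurable.indicator (by fun_prop) measurableSet_Ioi

lemma integrable_W : Integrable W := by
  unfold W
  refine IntegrableOn.integrable_indicator ?_ measurableSet_Ioi
  simpa using integrableOn_mul_exp 1 one_pos 0 le_rfl

lemma integral_W_mul (T : ℝ → ℝ) :
    ∫ y, W y * T y = ∫ y in Ioi (0 : ℝ), y * Real.exp (-y) * T y := by
  rw [← integral_indicator measurableSet_Ioi]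
  congr 1
  funext y
  unfold W
  by_cases h : y ∈ Ioi (0 : ℝ)
  · rw [indicator_of_mem h, indicator_of_mem h]
  · rw [indicator_of_notMem h, indicator_of_notMem h, zero_mul]

/-- The comparison lemma. -/
lemma comparison (T : ℝ → ℝ) (hTm : Measurable T) (hT0 : ∀ y, 0 ≤ T y) (hT1 : ∀ y, T y ≤ 1)
    (hint : Integrable (fun y => T y - step y)) (hmean : ∫ y, (T y - step y) = 0)
    (t : ℝ) (ht : 0 < t) (m : ℝ) (hsign : ∀ y, 0 ≤ (W y - m) * (T y - G t y)) :
    4 / 9 * Real.exp (-1 / 3) ≤ ∫ y in Ioi (0 : ℝ), y * Real.exp (-y) * T y := by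
  refine (integral_G_ge t ht).trans ?_
  rw [← integral_W_mul, ← integral_W_mul]
  have iT : Integrable (fun y => W y * T y) :=
    integrable_W.mul_bdd (c := 1) hTm.aestronglyMeasurable
      (ae_of_all _ fun y => by rw [Real.norm_eq_abs, abs_of_nonneg (hT0 y)]; exact hT1 y)
  have iG : Integrable (fun y => W y * G t y) :=
    integrable_W.mul_bdd (c := 1) (measurable_G t).aestronglyMeasurable
      (ae_of_all _ fun y => by
        rw [Real.norm_eq_abs, abs_of_nonneg (G_nonneg t y)]; exact G_le_one t y)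
  have iG' := integrable_G_sub_step t ht
  have h0 : 0 ≤ ∫ y, (W y - m) * (T y - G t y) := integral_nonneg hsign
  have h1 : (fun y => (W y - m) * (T y - G t y)) = fun y => (W y * T y - W y * G t y) -
      m * ((T y - step y) - (G t y - step y)) := by
    funext y; ring
  have j1 : Integrable (fun y => W y * T y - W y * G t y) := iT.sub iG
  have j2 : Integrable (fun y => m * ((T y - step y) - (G t y - step y))) :=
    (hint.sub iG').const_mul m
  rw [h1, integral_sub j1 j2, integral_sub iT iG,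
    integral_const_mul, integral_sub hint iG', hmean, integral_G_sub_step t ht] at h0
  linarith

end Crest.Agent.R280
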