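import Mathlib
import Crest.Agent.R280.Abstract

/-!
The crossing argument for S0423.
-/

namespace Crest.Agent.R280

open MeasureTheory Set Real Filter Topology

lemma concave_of_pf2 (ψ : ℝ → ℝ) (hanti : Antitone ψ)
    (h : ∀ x y d : ℝ, x ≤ y → 0 ≤ d → ψ x + ψ (y + d) ≤ ψ (x + d) + ψ y) :
    ConcaveOn ℝ univ ψ := by
  have aux1 : ∀ (y d : ℝ), 0 ≤ d → ∀ n : ℕ, ψ (y + n * d) - ψ y ≤ n * (ψ (y + d) - ψ y) := by
    intro y d hd n
    induction n with
    | zero => simp
    | succ n ih =>
      have := h y (y + n * d) d (by have : 0 ≤ (n : ℝ) * d := by positivity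
                                    linarith) hd
      have e : y + ((n + 1 : ℕ) : ℝ) * d = y + n * d + d := by push_cast; ring
      rw [e]
      push_cast
      linarith
  have aux2 : ∀ (y d : ℝ), 0 ≤ d → ∀ n : ℕ, n * (ψ (y + d) - ψ y) ≤ ψ y - ψ (y - n * d) := by
    intro y d hd n
    induction n with
    | zero => simp
    | succ n ih =>
      have := h (y - ((n + 1 : ℕ) : ℝ) * d) y d (by
        have : 0 ≤ ((n + 1 : ℕ) : ℝ) * d := by positivity
        linarith) hd
      have e : y - ((n + 1 : ℕ) : ℝ) * d + d = y - n * d := by push_cast; ring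
      rw [e] at this
      push_cast at this ⊢
      linarith
  refine concaveOn_of_slope_anti_adjacent convex_univ ?_
  intro x y z _ _ hxy hyz
  have hzy : 0 < z - y := sub_pos.2 hyz
  have hyx : 0 < y - x := sub_pos.2 hxy
  have key : ∀ n : ℕ, ((y - x) / (z - y) + 1 / ((n : ℝ) + 1)) * (ψ z - ψ y) ≤ ψ y - ψ x := by
    intro n
    set d := (z - y) / ((n : ℝ) + 1) with hd
    have hd0 : 0 < d := by positivity
    set m := ⌈(y - x) / d⌉₊ with hm
    have h1 := aux1 y d hd0.le (n + 1)
    have e1 : y + ((n + 1 : ℕ) : ℝ) * d = z := by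
      rw [hd]; push_cast; field_simp; ring
    rw [e1] at h1
    have h2 := aux2 y d hd0.le m
    have h3 : (y - x) / d ≤ m := Nat.le_ceil _
    have h4 : (m : ℝ) < (y - x) / d + 1 := Nat.ceil_lt_add_one (by positivity)
    have h5 : ψ x ≤ ψ (y - m * d) := by
      apply hanti
      rw [div_le_iff₀ hd0] at h3
      linarith
    have h6 : ψ (y + d) - ψ y ≤ 0 := sub_nonpos.2 (hanti (by linarith))
    have e2 : (y - x) / (z - y) + 1 / ((n : ℝ) + 1) = ((y - x) / d + 1) / ((n : ℝ) + 1) := by
      rw [hd]; field_simp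
    have h7 : (ψ z - ψ y) / ((n : ℝ) + 1) ≤ ψ (y + d) - ψ y := by
      rw [div_le_iff₀ (by positivity)]
      push_cast at h1
      linarith
    have h8 : 0 ≤ (y - x) / d + 1 := by positivity
    calc ((y - x) / (z - y) + 1 / ((n : ℝ) + 1)) * (ψ z - ψ y)
        = ((y - x) / d + 1) * ((ψ z - ψ y) / ((n : ℝ) + 1)) := by rw [e2]; ring
      _ ≤ ((y - x) / d + 1) * (ψ (y + d) - ψ y) := by gcongr
      _ ≤ m * (ψ (y + d) - ψ y) := mul_le_mul_of_nonpos_right h4.le h6
      _ ≤ ψ y - ψ x := by linarith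
  have lim : Tendsto (fun n : ℕ => ((y - x) / (z - y) + 1 / ((n : ℝ) + 1)) * (ψ z - ψ y)) atTop
      (𝓝 (((y - x) / (z - y) + 0) * (ψ z - ψ y))) :=
    (tendsto_const_nhds.add tendsto_one_div_add_atTop_nhds_zero_nat).mul tendsto_const_nhds
  have := le_of_tendsto' lim key
  rw [div_le_div_iff₀ hzy hyx]
  rw [add_zero, div_mul_eq_mul_div, div_le_iff₀ hzy] at this
  linarith

lemma chord_in {s : Set ℝ} {φ : ℝ → ℝ} (hφ : ConcaveOn ℝ s φ) {a b m : ℝ} (ha : a ∈ s)
    (hb : b ∈ s) (hma : m ≤ φ a) (hmb : m ≤ φ b) {x : ℝ} (hax : a ≤ x) (hxb : x ≤ b) :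
    m ≤ φ x := by
  have := hφ.ge_on_segment ha hb (z := x) (by rw [segment_eq_Icc (hax.trans hxb)]; exact ⟨hax, hxb⟩)
  exact (le_min hma hmb).trans this

lemma chord_out {s : Set ℝ} {φ : ℝ → ℝ} (hφ : ConcaveOn ℝ s φ) {a b m : ℝ} (ha : a ∈ s)
    (hb : b ∈ s) (hab : a < b) (hma : φ a = m) (hmb : φ b = m) {x : ℝ} (hx : x ∈ s)
    (h : x < a ∨ b < x) : φ x ≤ m := by
  rcases h with h | h
  · have := hφ.slope_anti_adjacent hx hb h hab
    rw [hma, hmb, sub_self, zero_div, le_div_iff₀ (sub_pos.2 h)] at this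
    linarith
  · have := hφ.slope_anti_adjacent ha hx hab h
    rw [hma, hmb, sub_self, zero_div, div_le_iff₀ (sub_pos.2 h)] at this
    linarith

/-- The smaller point of a level pair of `y * exp (-y)`. -/
noncomputable def uu (r : ℝ) : ℝ := r / (Real.exp r - 1)

lemma exp_sub_one_pos {r : ℝ} (hr : 0 < r) : 0 < Real.exp r - 1 := by
  have := Real.add_one_le_exp r
  linarith

lemma uu_pos {r : ℝ} (hr : 0 < r) : 0 < uu r := div_pos hr (exp_sub_one_pos hr)

lemma uu_le_one {r : ℝ} (hr : 0 < r) : uu r ≤ 1 := by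
  unfold uu
  rw [div_le_one (exp_sub_one_pos hr)]
  have := Real.add_one_le_exp r
  linarith

lemma uu_add {r : ℝ} (hr : 0 < r) : uu r + r = uu r * Real.exp r := by
  unfold uu
  have := exp_sub_one_pos hr
  field_simp
  ring

lemma continuousOn_uu : ContinuousOn uu (Ioi 0) := by
  unfold uu
  refine ContinuousOn.div continuousOn_id (by fun_prop) fun r hr => (exp_sub_one_pos hr).ne'

lemma tendsto_uu : Tendsto uu atTop (𝓝 0) := by
  have h : Tendsto (fun r : ℝ => 2 * r⁻¹) atTop (𝓝 (2 * 0)) :=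
    tendsto_inv_atTop_zero.const_mul 2
  rw [mul_zero] at h
  refine squeeze_zero' ?_ ?_ h
  · filter_upwards [eventually_gt_atTop 0] with r hr using (uu_pos hr).le
  · filter_upwards [eventually_gt_atTop 0] with r hr
    unfold uu
    rw [div_le_iff₀ (exp_sub_one_pos hr)]
    have := Real.quadratic_le_exp_of_nonneg hr.le
    have e : r = 2 * r⁻¹ * (r ^ 2 / 2) := by field_simp
    calc r = 2 * r⁻¹ * (r ^ 2 / 2) := e
      _ ≤ 2 * r⁻¹ * (Real.exp r - 1) := by gcongr; linarith

lemma concave_omega : ConcaveOn ℝ (Ioi (0 : ℝ)) (fun y => Real.log y - y) :=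
  strictConcaveOn_log_Ioi.concaveOn.sub (convexOn_id (convex_Ioi 0))

lemma W_eq {y : ℝ} (hy : 0 < y) : W y = Real.exp (Real.log y - y) := by
  unfold W
  rw [indicator_of_mem (show y ∈ Ioi (0 : ℝ) from hy), sub_eq_add_neg, Real.exp_add,
    Real.exp_log hy]

lemma W_of_nonpos {y : ℝ} (hy : y ≤ 0) : W y = 0 := by
  unfold W
  rw [indicator_of_notMem (show y ∉ Ioi (0 : ℝ) from not_lt.2 hy)]

lemma omega_eq {r : ℝ} (hr : 0 < r) :
    Real.log (uu r + r) - (uu r + r) = Real.log (uu r) - uu r := by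
  have : Real.log (uu r + r) = Real.log (uu r) + r := by
    rw [uu_add hr, Real.log_mul (uu_pos hr).ne' (Real.exp_pos r).ne', Real.log_exp]
  rw [this]; ring

lemma W_ge {r : ℝ} (hr : 0 < r) {y : ℝ} (h1 : uu r ≤ y) (h2 : y ≤ uu r + r) :
    W (uu r) ≤ W y := by
  have hu := uu_pos hr
  rw [W_eq hu, W_eq (hu.trans_le h1), Real.exp_le_exp]
  exact chord_in concave_omega (a := uu r) (b := uu r + r) hu (show 0 < uu r + r by linarith)
    le_rfl (omega_eq hr).ge h1 h2

lemma W_le {r : ℝ} (hr : 0 < r) {y : ℝ} (h : y < uu r ∨ uu r + r < y) :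
    W y ≤ W (uu r) := by
  have hu := uu_pos hr
  rcases le_or_gt y 0 with hy | hy
  · rw [W_of_nonpos hy]; exact W_nonneg _
  rw [W_eq hu, W_eq hy, Real.exp_le_exp]
  exact chord_out concave_omega (a := uu r) (b := uu r + r) hu (show 0 < uu r + r by linarith)
    (by linarith) rfl (omega_eq hr) hy h

lemma concave_sub_line {ψ : ℝ → ℝ} (hψ : ConcaveOn ℝ univ ψ) (l : ℝ) :
    ConcaveOn ℝ univ (fun y => ψ y - ((4 / 3 - y) * l - 1)) := by
  refine hψ.sub ⟨convex_univ, ?_⟩
  intro x _ y _ a b _ _ hab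
  simp only [smul_eq_mul]
  have : b = 1 - a := by linarith
  subst this
  apply le_of_eq
  ring

/-- The main abstract inequality. -/
theorem main_abstract (T : ℝ → ℝ) (hanti : Antitone T) (hT0 : ∀ y, 0 < T y) (hT1 : ∀ y, T y ≤ 1)
    (hpf : ∀ x y d : ℝ, x ≤ y → 0 ≤ d → T x * T (y + d) ≤ T (x + d) * T y)
    (hint : Integrable (fun y => T y - step y)) (hmean : ∫ y, (T y - step y) = 0) :
    4 / 9 * Real.exp (-1 / 3) ≤ ∫ y in Ioi (0 : ℝ), y * Real.exp (-y) * T y := by
  set ψ : ℝ → ℝ := fun y => Real.log (T y) with hψ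
  have hTψ : ∀ y, T y = Real.exp (ψ y) := fun y => (Real.exp_log (hT0 y)).symm
  have hψanti : Antitone ψ := fun x y hxy => Real.log_le_log (hT0 y) (hanti hxy)
  have hconc : ConcaveOn ℝ univ ψ := by
    refine concave_of_pf2 ψ hψanti fun x y d hxy hd => ?_
    simp only [hψ]
    rw [← Real.log_mul (hT0 _).ne' (hT0 _).ne', ← Real.log_mul (hT0 _).ne' (hT0 _).ne']
    exact Real.log_le_log (mul_pos (hT0 _) (hT0 _)) (hpf x y d hxy hd)
  have hcont : Continuous ψ := by
    rw [← continuousOn_univ]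
    exact hconc.continuousOn isOpen_univ
  have comp := comparison T hanti.measurable (fun y => (hT0 y).le) hT1 hint hmean
  -- comparison of `T` with `G` from a comparison of `ψ` with a line
  have hTG : ∀ l y : ℝ, 0 < l → ψ y ≤ (4 / 3 - y) * l - 1 → T y ≤ G (1 / l) y := by
    intro l y hl h
    refine le_min (hT1 y) ?_
    rw [hTψ, Real.exp_le_exp, div_div_eq_mul_div, div_one]
    exact h
  have hGT : ∀ l y : ℝ, 0 < l → (4 / 3 - y) * l - 1 ≤ ψ y → G (1 / l) y ≤ T y := by
    intro l y hl h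
    refine (G_le_exp _ _).trans ?_
    rw [hTψ, Real.exp_le_exp, div_div_eq_mul_div, div_one]
    exact h
  rcases le_or_gt (ψ (4 / 3)) (-1) with hc | hc
  · -- supporting line
    obtain ⟨y₁, hy₁, hy₁'⟩ : ∃ y < (4 / 3 : ℝ), -1 < ψ y := by
      by_contra hcon
      push Not at hcon
      have hI : IntegrableOn (fun _ : ℝ => 1 - Real.exp (-1)) (Iio (4 / 3)) := by
        refine Integrable.mono hint.integrableOn aestronglyMeasurable_const ?_
        rw [ae_restrict_iff' measurableSet_Iio]
        refine ae_of_all _ fun y hy => ?_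
        have h1 : T y ≤ Real.exp (-1) := by rw [hTψ, Real.exp_le_exp]; exact hcon y hy
        have h2 : Real.exp (-1) < 1 := by rw [Real.exp_lt_one_iff]; norm_num
        unfold step
        rw [indicator_of_mem hy, Real.norm_eq_abs, Real.norm_eq_abs, Pi.one_apply,
          abs_of_nonneg (by linarith), abs_of_nonpos (by linarith)]
        linarith
      have h2 : Real.exp (-1) < 1 := by rw [Real.exp_lt_one_iff]; norm_num
      rw [integrableOn_const_iff] at hI
      rcases hI with hI | hI
      · simp only [enorm_eq_zero] at hI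
        linarith
      · simp at hI
    obtain ⟨l, hl1, hl2⟩ := exists_between_of_forall_le
      (s := (fun y => (ψ y + 1) / (4 / 3 - y)) '' Iio (4 / 3))
      (t := (fun y => (ψ y + 1) / (4 / 3 - y)) '' Ioi (4 / 3))
      (Nonempty.image _ nonempty_Iio) (Nonempty.image _ nonempty_Ioi) (by
        rintro _ ⟨y, hy, rfl⟩ _ ⟨z, hz, rfl⟩
        have hy' : 0 < 4 / 3 - y := sub_pos.2 hy
        have hz' : 0 < z - 4 / 3 := sub_pos.2 hz
        have := hconc.slope_anti_adjacent (mem_univ y) (mem_univ z) hy hz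
        have e : (ψ z + 1) / (4 / 3 - z) = -(ψ z + 1) / (z - 4 / 3) := by
          rw [← neg_div_neg_eq]; congr 1; ring
        simp only
        rw [e]
        rw [div_le_div_iff₀ hz' hy'] at this
        rw [div_le_div_iff₀ hy' hz']
        nlinarith)
    have hl : 0 < l := by
      refine lt_of_lt_of_le ?_ (hl1 ⟨y₁, hy₁, rfl⟩)
      exact div_pos (by linarith) (sub_pos.2 hy₁)
    refine comp (1 / l) (by positivity) 1 fun y => ?_
    refine mul_nonneg_of_nonpos_of_nonpos (sub_nonpos.2 (W_le_one y)) (sub_nonpos.2 ?_)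
    refine hTG l y hl ?_
    rcases lt_trichotomy y (4 / 3) with h | h | h
    · have := hl1 ⟨y, h, rfl⟩
      simp only at this
      rw [div_le_iff₀ (sub_pos.2 h)] at this
      linarith
    · rw [h]; linarith
    · have := hl2 ⟨y, h, rfl⟩
      simp only at this
      rw [le_div_iff_of_neg (sub_neg.2 h)] at this
      linarith
  · -- chords
    set L : ℝ → ℝ := fun u => (ψ u + 1) / (4 / 3 - u) with hL
    have hLpos : ∀ u < (4 / 3 : ℝ), 0 < L u := by
      intro u hu
      have := hψanti hu.le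
      exact div_pos (by linarith) (sub_pos.2 hu)
    have hLeq : ∀ u < (4 / 3 : ℝ), ψ u - ((4 / 3 - u) * L u - 1) = 0 := by
      intro u hu
      have := sub_pos.2 hu
      simp only [hL]
      rw [mul_div_cancel₀ _ this.ne']
      ring
    have hu43 : ∀ r : ℝ, 0 < r → uu r < 4 / 3 := fun r hr => by
      have := uu_le_one hr
      linarith
    set M : ℝ → ℝ := fun r => ψ (uu r + r) - ((4 / 3 - (uu r + r)) * L (uu r) - 1) with hM
    have hMcont : ContinuousOn M (Ioi 0) := by
      have h1 : ContinuousOn (fun r => uu r + r) (Ioi 0) := continuousOn_uu.add continuousOn_id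
      refine (hcont.comp_continuousOn h1).sub (ContinuousOn.sub (ContinuousOn.mul
        (continuousOn_const.sub h1) ?_) continuousOn_const)
      refine ContinuousOn.div ((hcont.comp_continuousOn continuousOn_uu).add continuousOn_const)
        (continuousOn_const.sub continuousOn_uu) fun r hr => (sub_pos.2 (hu43 r hr)).ne'
    have hM1 : 0 ≤ M (1 / 3) := by
      have h13 : (0 : ℝ) < 1 / 3 := by norm_num
      have := uu_le_one h13
      refine chord_in (concave_sub_line hconc (L (uu (1 / 3)))) (mem_univ (uu (1 / 3)))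
        (mem_univ (4 / 3)) (hLeq _ (hu43 _ h13)).ge ?_ (by linarith) (by linarith)
      simp only [sub_self, zero_mul]
      linarith
    by_cases hex : ∃ r, 1 / 3 ≤ r ∧ M r ≤ 0
    · obtain ⟨r₂, hr₂, hMr₂⟩ := hex
      obtain ⟨r, hr, hMr⟩ : ∃ r ∈ Icc (1 / 3 : ℝ) r₂, M r = 0 := by
        have hsub : Icc (1 / 3 : ℝ) r₂ ⊆ Ioi 0 := fun r hr => by
          have := hr.1
          simp only [mem_Ioi]; linarith
        exact intermediate_value_Icc' hr₂ (hMcont.mono hsub) ⟨hMr₂, hM1⟩
      have hr0 : 0 < r := by have := hr.1; linarith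
      have hl := hLpos _ (hu43 r hr0)
      have hc2 := concave_sub_line hconc (L (uu r))
      refine comp (1 / L (uu r)) (by positivity) (W (uu r)) fun y => ?_
      by_cases hy : uu r ≤ y ∧ y ≤ uu r + r
      · refine mul_nonneg (sub_nonneg.2 (W_ge hr0 hy.1 hy.2)) (sub_nonneg.2 ?_)
        refine hGT _ y hl ?_
        have := chord_in hc2 (mem_univ (uu r)) (mem_univ (uu r + r)) (hLeq _ (hu43 _ hr0)).ge
          hMr.ge hy.1 hy.2
        linarith
      · have hy' : y < uu r ∨ uu r + r < y := by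
          by_contra hcon
          push Not at hcon
          exact hy hcon
        refine mul_nonneg_of_nonpos_of_nonpos (sub_nonpos.2 (W_le hr0 hy')) (sub_nonpos.2 ?_)
        refine hTG _ y hl ?_
        have := chord_out hc2 (mem_univ (uu r)) (mem_univ (uu r + r)) (by linarith)
          (hLeq _ (hu43 _ hr0)) hMr (mem_univ y) hy'
        linarith
    · push Not at hex
      have hl := hLpos 0 (by norm_num)
      refine comp (1 / L 0) (by positivity) 0 fun y => ?_
      rcases le_or_gt y 0 with hy | hy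
      · rw [W_of_nonpos hy]; simp
      refine mul_nonneg (sub_nonneg.2 (W_nonneg y)) (sub_nonneg.2 ?_)
      refine hGT _ y hl ?_
      have hLc : ContinuousAt L 0 := by
        refine ContinuousAt.div (hcont.continuousAt.add continuousAt_const)
          (continuousAt_const.sub continuousAt_id) (by norm_num)
      have lim : Tendsto (fun r => (4 / 3 - y) * L (uu r) - 1) atTop
          (𝓝 ((4 / 3 - y) * L 0 - 1)) :=
        ((hLc.tendsto.comp tendsto_uu).const_mul _).sub_const _
      refine le_of_tendsto lim ?_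
      filter_upwards [eventually_ge_atTop (1 / 3), eventually_ge_atTop y,
        tendsto_uu.eventually (eventually_le_nhds hy)] with r hr1 hr2 hr3
      have hr0 : 0 < r := by linarith
      have hu := uu_pos hr0
      have := chord_in (concave_sub_line hconc (L (uu r))) (mem_univ (uu r))
        (mem_univ (uu r + r)) (hLeq _ (hu43 _ hr0)).ge (hex r hr1).le hr3 (by linarith)
      linarith

end Crest.Agent.R280
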