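import Mathlib
import Crest.Agent.R280.Crossing

/-!
Probabilistic part of S0423: weighted sums of independent exponential variables.
-/

namespace Crest.Agent.R280

open MeasureTheory Set Real Filter Topology
open scoped ENNReal

/-- The exponential law of mean one. -/
noncomputable def mu : Measure ℝ :=
  (volume.restrict (Ioi (0 : ℝ))).withDensity fun t => ENNReal.ofReal (Real.exp (-t))

lemma measurable_dens : Measurable fun t : ℝ => ENNReal.ofReal (Real.exp (-t)) := by fun_prop

lemma lintegral_mu (φ : ℝ → ℝ≥0∞) (hφ : Measurable φ) :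
    ∫⁻ t, φ t ∂mu = ∫⁻ t in Ioi (0 : ℝ), ENNReal.ofReal (Real.exp (-t)) * φ t := by
  unfold mu
  rw [lintegral_withDensity_eq_lintegral_mul _ measurable_dens hφ]
  rfl

lemma lintegral_exp_Ioi (κ : ℝ) (hκ : 0 < κ) (z : ℝ) :
    ∫⁻ t in Ioi z, ENNReal.ofReal (Real.exp (-κ * t)) =
      ENNReal.ofReal (Real.exp (-κ * z) / κ) := by
  rw [← ofReal_integral_eq_lintegral_ofReal (integrableOn_exp_mul_Ioi (by linarith) z)
    (ae_of_all _ fun t => (Real.exp_pos _).le), integral_exp_mul_Ioi (by linarith),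
    neg_div_neg_eq]

instance : IsProbabilityMeasure mu := by
  constructor
  rw [← lintegral_one, lintegral_mu _ measurable_const]
  have := lintegral_exp_Ioi 1 one_pos 0
  simpa using this

lemma ae_mu_pos : ∀ᵐ t ∂mu, (0 : ℝ) < t :=
  (withDensity_absolutelyContinuous _ _).ae_le (ae_restrict_mem measurableSet_Ioi)

lemma mu_Ioi_le (z : ℝ) : mu (Ioi z) ≤ ENNReal.ofReal (Real.exp (-z)) := by
  unfold mu
  rw [withDensity_apply _ measurableSet_Ioi, Measure.restrict_restrict measurableSet_Ioi]
  refine (lintegral_mono_set inter_subset_left).trans ?_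
  have := lintegral_exp_Ioi 1 one_pos z
  simp only [neg_mul, one_mul, div_one] at this
  exact this.le

lemma mu_ne_zero {s : Set ℝ} (h : volume (s ∩ Ioi 0) ≠ 0) (hs : MeasurableSet s) : mu s ≠ 0 := by
  intro h0
  apply h
  rw [← Measure.restrict_apply hs]
  refine withDensity_absolutelyContinuous' measurable_dens.aemeasurable ?_ h0
  exact ae_of_all _ fun t => by simp [Real.exp_pos]

lemma integrable_id_mu : Integrable (fun t : ℝ => t) mu := by
  unfold mu
  rw [integrable_withDensity_iff measurable_dens (ae_of_all _ fun t => ENNReal.ofReal_lt_top)]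
  have := integrableOn_mul_exp 1 one_pos 0 le_rfl
  refine this.congr (ae_of_all _ fun t => ?_)
  simp [ENNReal.toReal_ofReal (Real.exp_pos _).le]

lemma integral_id_mu : ∫ t, t ∂mu = 1 := by
  unfold mu
  rw [integral_withDensity_eq_integral_toReal_smul measurable_dens
    (ae_of_all _ fun t => ENNReal.ofReal_lt_top)]
  have := integral_mul_exp 1 one_pos 0 le_rfl
  simp only [neg_mul, one_mul, neg_zero, Real.exp_zero, div_one, one_pow, zero_add] at this
  rw [← this]
  congr 1
  funext t
  simp [ENNReal.toReal_ofReal (Real.exp_pos _).le, mul_comm]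

/-- Lack of memory. -/
lemma lintegral_mu_Ioi (φ : ℝ → ℝ≥0∞) (hφ : Measurable φ) (d : ℝ) (hd : 0 ≤ d) :
    ∫⁻ t in Ioi d, φ t ∂mu = ENNReal.ofReal (Real.exp (-d)) * ∫⁻ t, φ (t + d) ∂mu := by
  have hφd : Measurable fun t => φ (t + d) := hφ.comp (measurable_add_const d)
  rw [lintegral_mu _ hφd,
    ← lintegral_indicator measurableSet_Ioi, lintegral_mu _ (hφ.indicator measurableSet_Ioi),
    ← lintegral_const_mul _ (by fun_prop)]
  have h1 : (fun t => ENNReal.ofReal (Real.exp (-t)) * (Ioi d).indicator φ t) =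
      (Ioi d).indicator fun t => ENNReal.ofReal (Real.exp (-t)) * φ t := by
    funext t
    by_cases h : t ∈ Ioi d
    · simp [indicator_of_mem h]
    · simp [indicator_of_notMem h]
  rw [h1, lintegral_indicator measurableSet_Ioi, Measure.restrict_restrict measurableSet_Ioi,
    inter_eq_left.2 (Ioi_subset_Ioi hd)]
  have h2 := (measurePreserving_add_right volume d).setLIntegral_comp_preimage
    (s := Ioi d) measurableSet_Ioi (f := fun t => ENNReal.ofReal (Real.exp (-t)) * φ t)
    (measurable_dens.mul hφ)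
  rw [← h2]
  simp only [preimage_add_const_Ioi, sub_self]
  congr 1
  funext t
  rw [← mul_assoc, ← ENNReal.ofReal_mul (Real.exp_pos _).le, ← Real.exp_add]
  congr 3
  ring

lemma lintegral_mul_le (ν₁ ν₂ : Measure ℝ) {f g f' g' : ℝ → ℝ≥0∞} (hf : Measurable f)
    (hg : Measurable g) (hf' : Measurable f') (hg' : Measurable g')
    (h : ∀ᵐ t ∂ν₁, ∀ᵐ s ∂ν₂, f t * g s ≤ f' t * g' s) :
    (∫⁻ t, f t ∂ν₁) * (∫⁻ s, g s ∂ν₂) ≤ (∫⁻ t, f' t ∂ν₁) * (∫⁻ s, g' s ∂ν₂) := by
  rw [← lintegral_lintegral_mul hf.aemeasurable hg.aemeasurable,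
    ← lintegral_lintegral_mul hf'.aemeasurable hg'.aemeasurable]
  refine lintegral_mono_ae ?_
  filter_upwards [h] with t ht
  exact lintegral_mono_ae ht

/-- The two-point form of log-concavity. -/
def PF2 (φ : ℝ → ℝ≥0∞) : Prop :=
  ∀ x y d : ℝ, x ≤ y → 0 ≤ d → φ x * φ (y + d) ≤ φ (x + d) * φ y

lemma PF2.conv {φ : ℝ → ℝ≥0∞} (hφ : PF2 φ) (hm : Measurable φ) (b : ℝ) :
    PF2 fun z => ∫⁻ t, φ (z + b * t) ∂mu := by
  have hmz : ∀ z : ℝ, Measurable fun t : ℝ => φ (z + b * t) := fun z => hm.comp (by fun_prop)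
  have split : ∀ z d : ℝ, 0 ≤ d → ∫⁻ t, φ (z + b * t) ∂mu =
      ∫⁻ t in Iic d, φ (z + b * t) ∂mu +
        ENNReal.ofReal (Real.exp (-d)) * ∫⁻ t, φ (z + b * d + b * t) ∂mu := by
    intro z d hd
    rw [← lintegral_add_compl _ (measurableSet_Iic (a := d)), compl_Iic,
      lintegral_mu_Ioi _ (hmz z) d hd]
    congr 3
    funext t
    congr 1
    ring
  intro x y h hxy hh
  rcases lt_trichotomy b 0 with hb | hb | hb
  · set d := (y - x) / (-b) with hd
    have hd0 : 0 ≤ d := div_nonneg (by linarith) (by linarith)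
    have e : b * d = x - y := by
      have := hb.ne
      rw [hd]; field_simp; ring
    simp only
    rw [split y d hd0, split (y + h) d hd0, mul_add, mul_add, e]
    have e1 : y + (x - y) = x := by ring
    have e2 : y + h + (x - y) = x + h := by ring
    rw [e1, e2]
    refine add_le_add ?_ (le_of_eq (by ring))
    refine lintegral_mul_le _ _ (hmz _) (hmz _) (hmz _) (hmz _) ?_
    filter_upwards [ae_mu_pos] with s hs
    filter_upwards [ae_restrict_mem measurableSet_Iic] with t ht
    have ht' : t ≤ d := ht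
    have := hφ (x + b * s) (y + b * t) h (by nlinarith) hh
    rw [show y + b * t + h = y + h + b * t by ring, show x + b * s + h = x + h + b * s by ring]
      at this
    exact this
  · subst hb
    simpa using hφ x y h hxy hh
  · set d := (y - x) / b with hd
    have hd0 : 0 ≤ d := div_nonneg (by linarith) hb.le
    have e : b * d = y - x := by rw [hd]; field_simp
    simp only
    rw [split x d hd0, split (x + h) d hd0, add_mul, add_mul, e]
    have e1 : x + (y - x) = y := by ring
    have e2 : x + h + (y - x) = y + h := by ring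
    rw [e1, e2]
    refine add_le_add ?_ (le_of_eq (by ring))
    refine lintegral_mul_le _ _ (hmz _) (hmz _) (hmz _) (hmz _) ?_
    filter_upwards [ae_restrict_mem measurableSet_Iic] with t ht
    filter_upwards [ae_mu_pos] with s hs
    have ht' : t ≤ d := ht
    have := hφ (x + b * t) (y + b * s) h (by nlinarith) hh
    rw [show y + b * s + h = y + h + b * s by ring, show x + b * t + h = x + h + b * t by ring]
      at this
    exact this

/-- The product law. -/
noncomputable def PP (N : ℕ) : Measure (Fin N → ℝ) := Measure.pi fun _ => mu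

instance (N : ℕ) : IsProbabilityMeasure (PP N) := by
  unfold PP
  infer_instance

lemma lintegral_pi_succ (ν : Measure ℝ) [SigmaFinite ν] (N : ℕ) (φ : (Fin (N + 1) → ℝ) → ℝ≥0∞)
    (hφ : Measurable φ) :
    ∫⁻ x, φ x ∂(Measure.pi fun _ => ν) =
      ∫⁻ t, ∫⁻ x : Fin N → ℝ, φ (Fin.cons t x) ∂(Measure.pi fun _ => ν) ∂ν := by
  have h := (measurePreserving_piFinSuccAbove (fun _ : Fin (N + 1) => ν) 0).symm
  have hm : Measurable fun a : ℝ × (Fin N → ℝ) =>
      φ ((MeasurableEquiv.piFinSuccAbove (fun _ => ℝ) 0).symm a) :=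
    hφ.comp (MeasurableEquiv.measurable _)
  rw [← h.lintegral_comp hφ, lintegral_prod _ hm.aemeasurable]
  simp_rw [MeasurableEquiv.piFinSuccAbove_symm_apply, Fin.insertNthEquiv, Fin.insertNth_zero,
    Equiv.coe_fn_mk]
  rfl

lemma measurable_cons (N : ℕ) :
    Measurable fun p : ℝ × (Fin N → ℝ) => (Fin.cons p.1 p.2 : Fin (N + 1) → ℝ) := by
  refine measurable_pi_lambda _ fun i => ?_
  refine Fin.cases ?_ (fun j => ?_) i
  · simpa using measurable_fst
  · simp only [Fin.cons_succ]
    exact (measurable_pi_apply j).comp measurable_snd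

lemma lintegral_PP (N : ℕ) : ∀ (φ : (Fin N → ℝ) → ℝ≥0∞), Measurable φ →
    ∫⁻ x, φ x ∂(PP N) = ∫⁻ x, ENNReal.ofReal (Real.exp (-∑ i, x i)) * φ x
      ∂(Measure.pi fun _ : Fin N => volume.restrict (Ioi (0 : ℝ))) := by
  induction N with
  | zero =>
    intro φ _
    unfold PP
    simp [lintegral_unique]
  | succ N ih =>
    intro φ hφ
    have hc : Measurable fun p : ℝ × (Fin N → ℝ) => φ (Fin.cons p.1 p.2) :=
      hφ.comp (measurable_cons N)
    have hm : Measurable fun x : Fin (N + 1) → ℝ =>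
        ENNReal.ofReal (Real.exp (-∑ i, x i)) * φ x := Measurable.mul (by fun_prop) hφ
    rw [lintegral_pi_succ _ N _ hm]
    unfold PP at ih ⊢
    have hm2 : Measurable fun t : ℝ =>
        ∫⁻ x : Fin N → ℝ, φ (Fin.cons t x) ∂(Measure.pi fun _ => mu) := hc.lintegral_prod_right'
    rw [lintegral_pi_succ _ N _ hφ, lintegral_mu _ hm2]
    congr 1
    funext t
    have hct : Measurable fun x : Fin N → ℝ => φ (Fin.cons t x) :=
      hc.comp (measurable_const.prodMk measurable_id)
    have hm3 : Measurable fun x : Fin N → ℝ =>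
        ENNReal.ofReal (Real.exp (-∑ i, x i)) * φ (Fin.cons t x) := Measurable.mul (by fun_prop) hct
    rw [ih _ hct, ← lintegral_const_mul _ hm3]
    congr 1
    funext x
    rw [← mul_assoc, ← ENNReal.ofReal_mul (Real.exp_pos _).le, ← Real.exp_add,
      Fin.sum_univ_succ]
    simp only [Fin.cons_zero, Fin.cons_succ, neg_add]

lemma PP_eq (N : ℕ) : PP N = (volume.restrict (Set.pi Set.univ fun _ : Fin N => Ioi (0 : ℝ))).withDensity
    fun x => ENNReal.ofReal (Real.exp (-∑ i, x i)) := by
  ext s hs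
  rw [← lintegral_indicator_one hs, lintegral_PP N _ (measurable_one.indicator hs),
    ← lintegral_indicator_one hs,
    lintegral_withDensity_eq_lintegral_mul _ (by fun_prop) (measurable_one.indicator hs),
    volume_pi, Measure.restrict_pi_pi]
  rfl

lemma integral_orthant (N : ℕ) (f : (Fin N → ℝ) → ℝ) :
    ∫ x in Set.pi Set.univ (fun _ : Fin N => Ioi (0 : ℝ)), f x * Real.exp (-∑ i, x i) =
      ∫ x, f x ∂(PP N) := by
  rw [PP_eq, integral_withDensity_eq_integral_toReal_smul (by fun_prop)
    (ae_of_all _ fun t => ENNReal.ofReal_lt_top)]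
  congr 1
  funext x
  simp [ENNReal.toReal_ofReal (Real.exp_pos _).le, mul_comm]

/-- The survival function of the weighted sum. -/
noncomputable def SS {N : ℕ} (a : Fin N → ℝ) (y : ℝ) : ℝ≥0∞ := PP N {x | y < ∑ i, a i * x i}

lemma measurableSet_SS {N : ℕ} (a : Fin N → ℝ) (y : ℝ) :
    MeasurableSet {x : Fin N → ℝ | y < ∑ i, a i * x i} :=
  measurableSet_lt measurable_const (by fun_prop)

lemma SS_anti {N : ℕ} (a : Fin N → ℝ) : Antitone (SS a) := by
  intro y z h
  exact measure_mono fun x (hx : z < _) => lt_of_le_of_lt h hx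

lemma SS_le_one {N : ℕ} (a : Fin N → ℝ) (y : ℝ) : SS a y ≤ 1 := prob_le_one

lemma SS_ne_top {N : ℕ} (a : Fin N → ℝ) (y : ℝ) : SS a y ≠ ∞ := measure_ne_top _ _

lemma SS_zero (a : Fin 0 → ℝ) (y : ℝ) : SS a y = (Iio (0 : ℝ)).indicator 1 y := by
  unfold SS
  by_cases h : y < 0
  · simp [h]
  · simp [h]

lemma SS_succ {N : ℕ} (a : Fin (N + 1) → ℝ) (y : ℝ) :
    SS a y = ∫⁻ t, SS (Fin.tail a) (y + (-a 0) * t) ∂mu := by
  unfold SS
  rw [← lintegral_indicator_one (measurableSet_SS a y)]
  unfold PP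
  rw [lintegral_pi_succ _ N _ (measurable_one.indicator (measurableSet_SS a y))]
  congr 1
  funext t
  rw [← lintegral_indicator_one (measurableSet_SS _ _)]
  congr 1
  funext x
  simp only [indicator, mem_ofPred_eq, Fin.sum_univ_succ, Fin.cons_zero, Fin.cons_succ, Fin.tail,
    Pi.one_apply]
  congr 1
  apply propext
  constructor <;> intro h <;> linarith

lemma SS_pf2 : ∀ {N : ℕ} (a : Fin N → ℝ), PF2 (SS a) := by
  intro N
  induction N with
  | zero =>
    intro a x y d hxy hd
    simp only [SS_zero]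
    by_cases h : y + d < 0
    · rw [indicator_of_mem (show x + d ∈ Iio (0 : ℝ) by simp only [mem_Iio]; linarith),
        indicator_of_mem (show y ∈ Iio (0 : ℝ) by simp only [mem_Iio]; linarith),
        indicator_of_mem (show x ∈ Iio (0 : ℝ) by simp only [mem_Iio]; linarith),
        indicator_of_mem (show y + d ∈ Iio (0 : ℝ) from h)]
      simp
    · rw [indicator_of_notMem (show y + d ∉ Iio (0 : ℝ) from h)]
      simp
  | succ N ih =>
    intro a
    have := (ih (Fin.tail a)).conv (SS_anti _).measurable (-a 0)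
    have e : SS a = fun z => ∫⁻ t, SS (Fin.tail a) (z + (-a 0) * t) ∂mu := funext (SS_succ a)
    rw [e]
    exact this

lemma SS_ne_zero {N : ℕ} (a : Fin N → ℝ) (i : Fin N) (hi : 0 < a i) (y : ℝ) : SS a y ≠ 0 := by
  classical
  set M := (y + ∑ j, |a j|) / a i with hM
  have hsub : Set.pi univ (fun j => if j = i then Ioi M else Ioo (0 : ℝ) 1) ⊆
      {x : Fin N → ℝ | y < ∑ j, a j * x j} := by
    intro x hx
    simp only [Set.mem_pi, mem_univ, forall_true_left] at hx
    have h1 : M < x i := by simpa using hx i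
    rw [hM, div_lt_iff₀ hi] at h1
    have h2 : ∑ j ∈ Finset.univ.erase i, -|a j| ≤ ∑ j ∈ Finset.univ.erase i, a j * x j := by
      refine Finset.sum_le_sum fun j hj => ?_
      have hj' := Finset.ne_of_mem_erase hj
      have h3 : x j ∈ Ioo (0 : ℝ) 1 := by simpa [hj'] using hx j
      have h4 := neg_abs_le (a j)
      have h5 := abs_nonneg (a j)
      nlinarith [h3.1, h3.2]
    have h6 := Finset.add_sum_erase Finset.univ (fun j => a j * x j) (Finset.mem_univ i)
    have h7 := Finset.add_sum_erase Finset.univ (fun j => |a j|) (Finset.mem_univ i)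
    rw [Finset.sum_neg_distrib] at h2
    have h8 := abs_nonneg (a i)
    simp only [mem_ofPred_eq]
    linarith
  intro h0
  have h1 := measure_mono_null hsub h0
  unfold PP at h1
  rw [Measure.pi_pi, Finset.prod_eq_zero_iff] at h1
  obtain ⟨j, -, hj⟩ := h1
  split_ifs at hj
  · refine mu_ne_zero ?_ measurableSet_Ioi hj
    simp [Ioi_inter_Ioi]
  · refine mu_ne_zero ?_ measurableSet_Ioo hj
    rw [inter_eq_left.2 Ioo_subset_Ioi_self]
    simp

end Crest.Agent.R280
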