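import Mathlib
import Crest.Prelude.Def_TruncExpWeight
import Crest.Agent.R280.Prob

/-!
Fubini steps, the upper bound and the sharpness for S0423.
-/

namespace Crest.Agent.R280

open MeasureTheory Set Real Filter Topology Crest.AlgGeometry
open scoped ENNReal

/-- The shifted survival function as a real number. -/
noncomputable def TT {N : ℕ} (a : Fin N → ℝ) (y : ℝ) : ℝ := (SS a (y - 4 / 3)).toReal

lemma TT_eq {N : ℕ} (a : Fin N → ℝ) (y : ℝ) :
    TT a y = ∫ x, (Iio (4 / 3 + ∑ i, a i * x i)).indicator (1 : ℝ → ℝ) y ∂(PP N) := by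
  unfold TT SS
  rw [← measureReal_def, ← integral_indicator_one (measurableSet_SS a _)]
  congr 1
  funext x
  simp only [indicator, mem_ofPred_eq, mem_Iio, Pi.one_apply]
  congr 1
  apply propext
  constructor <;> intro h <;> linarith

lemma TT_nonneg {N : ℕ} (a : Fin N → ℝ) (y : ℝ) : 0 ≤ TT a y := ENNReal.toReal_nonneg

lemma TT_le_one {N : ℕ} (a : Fin N → ℝ) (y : ℝ) : TT a y ≤ 1 := by
  unfold TT
  exact ENNReal.toReal_le_of_le_ofReal zero_le_one (by simpa using SS_le_one a _)

lemma TT_anti {N : ℕ} (a : Fin N → ℝ) : Antitone (TT a) := by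
  intro y z h
  exact ENNReal.toReal_mono (SS_ne_top _ _) (SS_anti a (by linarith))

lemma TT_pf2 {N : ℕ} (a : Fin N → ℝ) (x y d : ℝ) (hxy : x ≤ y) (hd : 0 ≤ d) :
    TT a x * TT a (y + d) ≤ TT a (x + d) * TT a y := by
  unfold TT
  rw [← ENNReal.toReal_mul, ← ENNReal.toReal_mul]
  refine ENNReal.toReal_mono (ENNReal.mul_ne_top (SS_ne_top _ _) (SS_ne_top _ _)) ?_
  have := SS_pf2 a (x - 4 / 3) (y - 4 / 3) d (by linarith) hd
  rw [show y - 4 / 3 + d = y + d - 4 / 3 by ring, show x - 4 / 3 + d = x + d - 4 / 3 by ring] at this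
  exact this

lemma measurable_ind {N : ℕ} (a : Fin N → ℝ) :
    Measurable fun p : ℝ × (Fin N → ℝ) =>
      (Iio (4 / 3 + ∑ i, a i * p.2 i)).indicator (1 : ℝ → ℝ) p.1 := by
  simp only [indicator, mem_Iio, Pi.one_apply]
  exact Measurable.ite (measurableSet_lt measurable_fst (by fun_prop)) measurable_const
    measurable_const

lemma measurable_step : Measurable step := measurable_one.indicator measurableSet_Iio

lemma ind_sub_step (v : ℝ) : (fun y => (Iio (4 / 3 + v)).indicator (1 : ℝ → ℝ) y - step y) =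
    fun y => (Ico (4 / 3) (4 / 3 + v)).indicator (1 : ℝ → ℝ) y -
      (Ico (4 / 3 + v) (4 / 3)).indicator (1 : ℝ → ℝ) y := by
  funext y
  unfold step
  simp only [indicator, mem_Iio, mem_Ico, Pi.one_apply]
  by_cases h1 : y < 4 / 3 + v <;> by_cases h2 : y < 4 / 3 <;>
    simp [h1, h2, not_le.2, not_lt.1]

lemma integrable_Ico (p q : ℝ) : Integrable ((Ico p q).indicator (1 : ℝ → ℝ)) :=
  IntegrableOn.integrable_indicator (integrableOn_const (by simp)) measurableSet_Ico

lemma integral_Ico (p q : ℝ) : ∫ y, (Ico p q).indicator (1 : ℝ → ℝ) y = max (q - p) 0 := by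
  rw [integral_indicator_one measurableSet_Ico, Real.volume_real_Ico]

lemma integrable_ind_sub_step (v : ℝ) :
    Integrable fun y => (Iio (4 / 3 + v)).indicator (1 : ℝ → ℝ) y - step y := by
  rw [ind_sub_step]
  exact (integrable_Ico _ _).sub (integrable_Ico _ _)

lemma integral_ind_sub_step (v : ℝ) :
    ∫ y, ((Iio (4 / 3 + v)).indicator (1 : ℝ → ℝ) y - step y) = v := by
  rw [ind_sub_step, integral_sub (integrable_Ico _ _) (integrable_Ico _ _), integral_Ico,
    integral_Ico]
  rcases le_total 0 v with h | h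
  · rw [max_eq_left (by linarith), max_eq_right (by linarith)]; ring
  · rw [max_eq_right (by linarith), max_eq_left (by linarith)]; ring

lemma integral_norm_ind_sub_step (v : ℝ) :
    ∫ y, ‖(Iio (4 / 3 + v)).indicator (1 : ℝ → ℝ) y - step y‖ ≤ 2 * |v| := by
  have h := congrFun (ind_sub_step v)
  simp_rw [h]
  calc _ ≤ ∫ y, ((Ico (4 / 3) (4 / 3 + v)).indicator (1 : ℝ → ℝ) y +
      (Ico (4 / 3 + v) (4 / 3)).indicator (1 : ℝ → ℝ) y) := by
        refine integral_mono ((integrable_Ico _ _).sub (integrable_Ico _ _)).norm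
          ((integrable_Ico _ _).add (integrable_Ico _ _)) fun y => ?_
        refine (norm_sub_le _ _).trans (le_of_eq ?_)
        have hn : ∀ p q : ℝ, 0 ≤ (Ico p q).indicator (1 : ℝ → ℝ) y := fun p q =>
          indicator_nonneg (fun _ _ => zero_le_one) _
        rw [Real.norm_of_nonneg (hn _ _), Real.norm_of_nonneg (hn _ _)]
    _ ≤ 2 * |v| := by
        rw [integral_add (integrable_Ico _ _) (integrable_Ico _ _), integral_Ico, integral_Ico]
        have h1 := le_abs_self v
        have h2 := neg_abs_le v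
        have h3 := abs_nonneg v
        have h4 : max (4 / 3 + v - 4 / 3) 0 ≤ |v| := max_le (by linarith) h3
        have h5 : max (4 / 3 - (4 / 3 + v)) 0 ≤ |v| := max_le (by linarith) h3
        linarith

lemma integrable_V {N : ℕ} (a : Fin N → ℝ) :
    Integrable (fun x : Fin N → ℝ => ∑ i, a i * x i) (PP N) := by
  refine integrable_finsetSum _ fun i _ => Integrable.const_mul ?_ _
  exact integrable_comp_eval (μ := fun _ : Fin N => mu) (i := i) (f := fun t : ℝ => t)
    integrable_id_mu

lemma integral_V {N : ℕ} (a : Fin N → ℝ) :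
    ∫ x : Fin N → ℝ, ∑ i, a i * x i ∂(PP N) = ∑ i, a i := by
  rw [integral_finsetSum]
  · refine Finset.sum_congr rfl fun i _ => ?_
    rw [integral_const_mul]
    have := integral_comp_eval (μ := fun _ : Fin N => mu) (i := i) (f := fun t : ℝ => t)
      aestronglyMeasurable_id
    unfold PP
    rw [this, integral_id_mu, mul_one]
  · intro i _
    refine Integrable.const_mul ?_ _
    exact integrable_comp_eval (μ := fun _ : Fin N => mu) (i := i) (f := fun t : ℝ => t)
      integrable_id_mu

lemma integrable_kernel_aux {α : Type*} [MeasurableSpace α] (P : Measure α) [SFinite P]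
    (V : α → ℝ) (hV : Integrable V P) (k : ℝ × α → ℝ) (hm : Measurable k)
    (h1 : ∀ x, Integrable fun y => k (y, x)) (h2 : ∀ x, ∫ y, ‖k (y, x)‖ ≤ 2 * |V x|) :
    Integrable k (volume.prod P) := by
  rw [integrable_prod_iff' hm.aestronglyMeasurable]
  refine ⟨ae_of_all _ h1, ?_⟩
  refine Integrable.mono' (hV.abs.const_mul 2) ?_ (ae_of_all _ fun x => ?_)
  · exact (hm.norm.stronglyMeasurable.integral_prod_left').aestronglyMeasurable
  · rw [Real.norm_of_nonneg (integral_nonneg fun _ => norm_nonneg _)]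
    exact h2 x

lemma integrable_kernel {N : ℕ} (a : Fin N → ℝ) :
    Integrable (fun p : ℝ × (Fin N → ℝ) =>
      (Iio (4 / 3 + ∑ i, a i * p.2 i)).indicator (1 : ℝ → ℝ) p.1 - step p.1)
      (volume.prod (PP N)) := by
  have h0 : Measurable fun p : ℝ × (Fin N → ℝ) => step p.1 := measurable_step.comp measurable_fst
  have hm : Measurable fun p : ℝ × (Fin N → ℝ) =>
      (Iio (4 / 3 + ∑ i, a i * p.2 i)).indicator (1 : ℝ → ℝ) p.1 - step p.1 :=
    Measurable.sub (measurable_ind a) h0
  refine integrable_kernel_aux (PP N) _ (integrable_V a) _ hm (fun x => ?_) (fun x => ?_)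
  · exact integrable_ind_sub_step (∑ i, a i * x i)
  · exact integral_norm_ind_sub_step (∑ i, a i * x i)

lemma TT_sub_step {N : ℕ} (a : Fin N → ℝ) (y : ℝ) :
    TT a y - step y = ∫ x, ((Iio (4 / 3 + ∑ i, a i * x i)).indicator (1 : ℝ → ℝ) y - step y)
      ∂(PP N) := by
  rw [integral_sub _ (integrable_const _), TT_eq]
  · simp
  · refine Integrable.of_bound ((measurable_ind a).comp
      (measurable_const.prodMk measurable_id)).aestronglyMeasurable 1 (ae_of_all _ fun x => ?_)
    simp only [indicator]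
    split_ifs <;> simp

lemma integrable_TT_sub_step {N : ℕ} (a : Fin N → ℝ) :
    Integrable fun y => TT a y - step y := by
  simp_rw [TT_sub_step]
  exact (integrable_kernel a).integral_prod_left

lemma integral_TT_sub_step {N : ℕ} (a : Fin N → ℝ) :
    ∫ y, (TT a y - step y) = ∑ i, a i := by
  simp_rw [TT_sub_step]
  rw [integral_integral_swap (integrable_kernel a)]
  simp_rw [integral_ind_sub_step]
  exact integral_V a

lemma one_sub_weight (z : ℝ) :
    ∫ y, W y * (Iio z).indicator (1 : ℝ → ℝ) y = 1 - truncExpWeight z := by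
  unfold truncExpWeight
  split_ifs with hz
  · rw [sub_self]
    refine integral_eq_zero_of_ae (ae_of_all _ fun y => ?_)
    by_cases hy : y < z
    · simp [W_of_nonpos (hy.le.trans hz)]
    · simp [hy]
  · push Not at hz
    have i1 := integrableOn_mul_exp 1 one_pos 0 le_rfl
    have i2 := integrableOn_mul_exp 1 one_pos z hz.le
    have i3 : IntegrableOn (fun y => y * Real.exp (-1 * y)) (Ici z) :=
      (integrableOn_Ici_iff_integrableOn_Ioi).2 i2
    have e : (fun y => W y * (Iio z).indicator (1 : ℝ → ℝ) y) = fun y =>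
        (Ioi 0).indicator (fun y => y * Real.exp (-1 * y)) y -
          (Ici z).indicator (fun y => y * Real.exp (-1 * y)) y := by
      funext y
      unfold W
      by_cases h1 : y < z
      · simp [indicator, h1, not_le.2 h1]
      · have h2 : z ≤ y := not_lt.1 h1
        have h3 : 0 < y := hz.trans_le h2
        simp [indicator, h1, h2, h3]
    rw [e, integral_sub (i1.integrable_indicator measurableSet_Ioi)
      (i3.integrable_indicator measurableSet_Ici), integral_indicator measurableSet_Ioi,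
      integral_indicator measurableSet_Ici, integral_Ici_eq_integral_Ioi,
      integral_mul_exp 1 one_pos 0 le_rfl, integral_mul_exp 1 one_pos z hz.le]
    simp only [mul_zero, Real.exp_zero, div_one, one_pow, zero_add, neg_mul, one_mul]
    ring

lemma integral_weight {N : ℕ} (a : Fin N → ℝ) :
    ∫ x, truncExpWeight (4 / 3 + ∑ i, a i * x i) ∂(PP N) =
      1 - ∫ y in Ioi (0 : ℝ), y * Real.exp (-y) * TT a y := by
  rw [← integral_W_mul]
  have hint : Integrable (fun p : ℝ × (Fin N → ℝ) =>
      W p.1 * (Iio (4 / 3 + ∑ i, a i * p.2 i)).indicator (1 : ℝ → ℝ) p.1)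
      (volume.prod (PP N)) := by
    refine Integrable.mul_bdd (c := 1) (integrable_W.comp_fst (PP N))
      (measurable_ind a).aestronglyMeasurable (ae_of_all _ fun p => ?_)
    simp only [indicator]
    split_ifs <;> simp
  simp_rw [TT_eq, ← integral_const_mul]
  rw [integral_integral_swap hint]
  have h2 := hint.integral_prod_right
  simp only [one_sub_weight] at h2 ⊢
  have h3 : Integrable (fun x : Fin N → ℝ => truncExpWeight (4 / 3 + ∑ i, a i * x i)) (PP N) := by
    have := (integrable_const (1 : ℝ)).sub h2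
    refine this.congr (ae_of_all _ fun x => ?_)
    simp
  rw [integral_sub (integrable_const _) h3]
  simp

lemma upper {N : ℕ} (a : Fin N → ℝ) (ha : ∑ i, a i = 0) :
    ∫ x, truncExpWeight (4 / 3 + ∑ i, a i * x i) ∂(PP N) ≤ 1 - 4 / 9 * Real.exp (-1 / 3) := by
  by_cases h : ∃ i, 0 < a i
  · obtain ⟨i, hi⟩ := h
    rw [integral_weight]
    have := main_abstract (TT a) (TT_anti a)
      (fun y => ENNReal.toReal_pos (SS_ne_zero a i hi _) (SS_ne_top _ _)) (TT_le_one a)
      (TT_pf2 a) (integrable_TT_sub_step a) (by rw [integral_TT_sub_step, ha])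
    linarith
  · push Not at h
    have h0 : ∀ i, a i = 0 := by
      intro i
      exact (Finset.sum_eq_zero_iff_of_nonpos fun j _ => h j).1 ha i (Finset.mem_univ i)
    simp only [h0, zero_mul, Finset.sum_const_zero, add_zero, integral_const, probReal_univ,
      smul_eq_mul, one_mul]
    unfold truncExpWeight
    rw [if_neg (by norm_num)]
    have h1 := c_le
    have e3 : 1 + 4 / 3 + (4 / 3) ^ 2 / 2 + (4 / 3) ^ 3 / 6 ≤ Real.exp (4 / 3) := by
      have := Real.sum_le_exp_of_nonneg (x := 4 / 3) (by norm_num) 4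
      simp only [Finset.sum_range_succ, Finset.sum_range_zero, Nat.factorial] at this
      norm_num at this ⊢
      linarith
    have e4 : Real.exp (-(4 / 3)) * Real.exp (4 / 3) = 1 := by
      rw [← Real.exp_add]; simp
    have e5 := Real.exp_pos (-(4 / 3))
    nlinarith

/-- The extremal coefficient vectors. -/
noncomputable def aa (c : ℝ) (n : ℕ) : Fin (n + 1) → ℝ := fun i => if (i : ℕ) = n then 2 else c

lemma tail_aa (c : ℝ) (n : ℕ) : Fin.tail (aa c (n + 1)) = aa c n := by
  funext i
  simp [Fin.tail, aa]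

lemma sum_aa (c : ℝ) (n : ℕ) : ∑ i, aa c n i = 2 + n * c := by
  induction n with
  | zero => simp [aa]
  | succ n ih =>
    rw [Fin.sum_univ_succ]
    have : ∀ i : Fin (n + 1), aa c (n + 1) i.succ = aa c n i := fun i => congrFun (tail_aa c n) i
    simp_rw [this, ih]
    simp [aa]
    ring

lemma SS_aa_le (c : ℝ) (hc : c ≤ 0) (n : ℕ) : ∀ y : ℝ,
    SS (aa c n) y ≤ ENNReal.ofReal (Real.exp (-y / 2) * (1 / (1 - c / 2)) ^ n) := by
  induction n with
  | zero =>
    intro y
    rw [SS_succ]
    simp only [SS_zero]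
    have e : (fun t : ℝ => (Iio (0 : ℝ)).indicator (1 : ℝ → ℝ≥0∞) (y + -aa c 0 0 * t)) =
        (Ioi (y / 2)).indicator 1 := by
      funext t
      simp only [indicator, mem_Iio, mem_Ioi, aa, Pi.one_apply, Fin.val_zero, if_true]
      congr 1
      apply propext
      constructor <;> intro h <;> linarith
    rw [e, lintegral_indicator_one measurableSet_Ioi]
    simpa [neg_div] using mu_Ioi_le (y / 2)
  | succ n ih =>
    intro y
    rw [SS_succ, tail_aa]
    have hκ : 0 < 1 - c / 2 := by linarith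
    have e0 : aa c (n + 1) 0 = c := by simp [aa]
    rw [e0]
    refine (lintegral_mono fun t => ih _).trans (le_of_eq ?_)
    rw [lintegral_mu _ (by fun_prop)]
    have e : ∀ t : ℝ, ENNReal.ofReal (Real.exp (-t)) *
        ENNReal.ofReal (Real.exp (-(y + -c * t) / 2) * (1 / (1 - c / 2)) ^ n) =
        ENNReal.ofReal (Real.exp (-y / 2) * (1 / (1 - c / 2)) ^ n) *
          ENNReal.ofReal (Real.exp (-(1 - c / 2) * t)) := by
      intro t
      rw [← ENNReal.ofReal_mul (Real.exp_pos _).le, ← ENNReal.ofReal_mul (by positivity),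
        ← mul_assoc, ← Real.exp_add, mul_right_comm, ← Real.exp_add]
      congr 3
      ring
    simp_rw [e]
    rw [lintegral_const_mul _ (by fun_prop), lintegral_exp_Ioi _ hκ,
      ← ENNReal.ofReal_mul (by positivity)]
    congr 1
    simp only [mul_zero, Real.exp_zero]
    ring

lemma lower (c : ℝ) (hc : c ≤ 0) (n : ℕ) :
    1 - 4 / 9 * Real.exp (2 / 3) * (1 / (1 - c / 2)) ^ n ≤
      ∫ x, truncExpWeight (4 / 3 + ∑ i, aa c n i * x i) ∂(PP (n + 1)) := by
  rw [integral_weight]
  have hκ : 0 < 1 - c / 2 := by linarith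
  have i1 := integrableOn_mul_exp (3 / 2) (by norm_num) 0 le_rfl
  have : ∫ y in Ioi (0 : ℝ), y * Real.exp (-y) * TT (aa c n) y ≤
      ∫ y in Ioi (0 : ℝ), (Real.exp (2 / 3) * (1 / (1 - c / 2)) ^ n) *
        (y * Real.exp (-(3 / 2) * y)) := by
    refine integral_mono_of_nonneg ?_ (i1.const_mul _) ?_
    · filter_upwards [ae_restrict_mem measurableSet_Ioi] with y hy
      have : 0 < y := hy
      have := TT_nonneg (aa c n) y
      positivity
    · filter_upwards [ae_restrict_mem measurableSet_Ioi] with y hy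
      have hy' : 0 < y := hy
      have h1 : TT (aa c n) y ≤ Real.exp (-(y - 4 / 3) / 2) * (1 / (1 - c / 2)) ^ n :=
        ENNReal.toReal_le_of_le_ofReal (by positivity) (SS_aa_le c hc n _)
      calc y * Real.exp (-y) * TT (aa c n) y
          ≤ y * Real.exp (-y) * (Real.exp (-(y - 4 / 3) / 2) * (1 / (1 - c / 2)) ^ n) := by gcongr
        _ = y * (1 / (1 - c / 2)) ^ n * (Real.exp (-y) * Real.exp (-(y - 4 / 3) / 2)) := by ring
        _ = y * (1 / (1 - c / 2)) ^ n * (Real.exp (2 / 3) * Real.exp (-(3 / 2) * y)) := by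
          rw [← Real.exp_add, ← Real.exp_add]
          congr 2
          ring
        _ = _ := by ring
  rw [integral_const_mul, integral_mul_exp _ (by norm_num) 0 le_rfl] at this
  simp only [mul_zero, Real.exp_zero, zero_div, zero_add, one_mul] at this
  linarith

lemma sharp (δ : ℝ) (hδ : 0 < δ) : ∃ (N : ℕ) (a : Fin N → ℝ), 1 ≤ N ∧ ∑ i, a i = 0 ∧
    1 - 4 / 9 * Real.exp (-1 / 3) - δ <
      ∫ x, truncExpWeight (4 / 3 + ∑ i, a i * x i) ∂(PP N) := by
  have h1 : Tendsto (fun n : ℕ => (1 + 1 / (n : ℝ)) ^ n) atTop (𝓝 (Real.exp 1)) :=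
    Real.tendsto_one_add_div_pow_exp 1
  have h2 := ((h1.inv₀ (Real.exp_pos 1).ne').const_mul (4 / 9 * Real.exp (2 / 3))).const_sub 1
  have e : 4 / 9 * Real.exp (2 / 3) * (Real.exp 1)⁻¹ = 4 / 9 * Real.exp (-1 / 3) := by
    rw [← Real.exp_neg, mul_assoc, ← Real.exp_add]
    norm_num
  rw [e] at h2
  have h3 := h2.eventually (eventually_gt_nhds (show 1 - 4 / 9 * Real.exp (-1 / 3) - δ <
    1 - 4 / 9 * Real.exp (-1 / 3) by linarith))
  obtain ⟨n, hn, hn1⟩ := (h3.and (eventually_ge_atTop 1)).exists
  have hn0 : (0 : ℝ) < n := by exact_mod_cast hn1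
  refine ⟨n + 1, aa (-2 / n) n, by omega, ?_, ?_⟩
  · rw [sum_aa]; field_simp; ring
  · refine hn.trans_le (le_trans (le_of_eq ?_) (lower (-2 / n) ?_ n))
    · rw [← inv_pow]
      congr 3
      field_simp
      ring
    · exact div_nonpos_of_nonpos_of_nonneg (by norm_num) hn0.le

end Crest.Agent.R280
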